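import Vale.Agent.P208.Sparse4

universe u v

namespace Vale.Agent.Results.P208.BlockSparse

open Vale.Agent.P208

/-- For all `q, d, lam` there are `k` and `D` such that: whenever `(V i)` is a family of pairwise
orthogonal subspaces of dimension at most `q` of a real inner product space and `X` is a doubling
set (constant `lam`) each of whose points lies in the span of at most `d` of the `V i`, then `X`
admits a bi-Lipschitz embedding into `R^k` with distortion at most `D`. -/
theorem result (q d lam : ℕ) : ∃ (k : ℕ) (D : ℝ),
    ∀ (H : Type u) [NormedAddCommGroup H] [InnerProductSpace ℝ H] (ι : Type v)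
      (V : ι → Submodule ℝ H), (∀ i, FiniteDimensional ℝ (V i)) →
      (∀ i, Module.finrank ℝ (V i) ≤ q) → (∀ i j, i ≠ j → V i ⟂ V j) →
      ∀ X : Set H, (∀ x ∈ X, ∃ S : Finset ι, S.card ≤ d ∧ x ∈ S.sup V) →
        IsDoublingWith X lam → EmbedsWith X k D := by
  refine ⟨kS q d 0 lam, DS q d 0 lam, ?_⟩
  intro H _ _ ι V hfin hq horth X hsp hdoub
  exact sparse_embeds V q d lam hq horth X hsp hdoub

end Vale.Agent.Results.P208.BlockSparse
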