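import Vale.Agent.P208.Bouquet

namespace Vale.Agent.Results.P208.OrthogonalBouquet

open Vale.Agent.P208

/-- Every doubling subset (constant `lam`) of a real inner product space, for instance `l_2`, that
is contained in a union of pairwise orthogonal subspaces of dimension at most `d` admits a
bi-Lipschitz embedding into `R^k` with `k = 8 * lam ^ 3 * d + 1` and distortion at most `207`. -/
theorem result {H : Type*} [NormedAddCommGroup H] [InnerProductSpace ℝ H] {ι : Type*}
    (V : ι → Submodule ℝ H) (d lam : ℕ)
    (hfin : ∀ i, FiniteDimensional ℝ (V i)) (hd : ∀ i, Module.finrank ℝ (V i) ≤ d)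
    (horth : ∀ i j, i ≠ j → V i ⟂ V j) (X : Set H) (hX : X ⊆ ⋃ i, (V i : Set H))
    (hdoub : IsDoublingWith X lam) : EmbedsWith X (8 * (lam ^ 3 * d) + 1) 207 :=
  bouquet_embeds V d hfin hd horth hX hdoub

end Vale.Agent.Results.P208.OrthogonalBouquet
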