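import Vale.Agent.Results.P208.AnnularFiniteDim
import Vale.Agent.Results.P208.BlockSparse
import Vale.Agent.Results.P208.OrthogonalBouquet

universe u v

namespace Vale.Agent.Results.P208.A0_Combined

open Vale.Agent.P208

theorem result :
    (∀ q d lam : ℕ, ∃ (k : ℕ) (D : ℝ),
      ∀ (H : Type u) [NormedAddCommGroup H] [InnerProductSpace ℝ H] (ι : Type v)
        (V : ι → Submodule ℝ H), (∀ i, FiniteDimensional ℝ (V i)) →
        (∀ i, Module.finrank ℝ (V i) ≤ q) → (∀ i j, i ≠ j → V i ⟂ V j) →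
        ∀ X : Set H, (∀ x ∈ X, ∃ S : Finset ι, S.card ≤ d ∧ x ∈ S.sup V) →
          IsDoublingWith X lam → EmbedsWith X k D) ∧
    (∀ (H : Type u) [NormedAddCommGroup H] [InnerProductSpace ℝ H] (ι : Type v)
      (V : ι → Submodule ℝ H) (d lam : ℕ), (∀ i, FiniteDimensional ℝ (V i)) →
      (∀ i, Module.finrank ℝ (V i) ≤ d) → (∀ i j, i ≠ j → V i ⟂ V j) →
      ∀ X : Set H, X ⊆ ⋃ i, (V i : Set H) → IsDoublingWith X lam →
        EmbedsWith X (8 * (lam ^ 3 * d) + 1) 207) ∧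
    (∀ (H : Type u) [NormedAddCommGroup H] [InnerProductSpace ℝ H] (X : Set H) (d : ℕ),
      (∀ j : ℤ, ∃ W : Submodule ℝ H, FiniteDimensional ℝ W ∧ Module.finrank ℝ W ≤ d ∧
        ∀ x ∈ X, (2 : ℝ) ^ j ≤ ‖x‖ → ‖x‖ < (2 : ℝ) ^ (j + 1) → x ∈ W) →
      EmbedsWith X (8 * d + 1) 207) :=
  ⟨fun q d lam => BlockSparse.result q d lam,
    fun _ _ _ _ V d lam hfin hd horth X hX hdoub =>
      OrthogonalBouquet.result V d lam hfin hd horth X hX hdoub,
    fun _ _ _ X d hX => AnnularFiniteDim.result X d hX⟩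

end Vale.Agent.Results.P208.A0_Combined
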