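import Vale.Agent.P208.AnnularThm

namespace Vale.Agent.Results.P208.AnnularFiniteDim

open Vale.Agent.P208

/-- A subset of a real inner product space each of whose dyadic annuli about the origin lies in a
subspace of dimension at most `d` (the subspace may change arbitrarily with the annulus) admits a
bi-Lipschitz embedding into `R^(8 d + 1)` with distortion at most `207`. -/
theorem result {H : Type*} [NormedAddCommGroup H] [InnerProductSpace ℝ H] (X : Set H) (d : ℕ)
    (hX : ∀ j : ℤ, ∃ W : Submodule ℝ H, FiniteDimensional ℝ W ∧ Module.finrank ℝ W ≤ d ∧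
      ∀ x ∈ X, (2 : ℝ) ^ j ≤ ‖x‖ → ‖x‖ < (2 : ℝ) ^ (j + 1) → x ∈ W) :
    EmbedsWith X (8 * d + 1) 207 :=
  annular_embeds X d hX

end Vale.Agent.Results.P208.AnnularFiniteDim
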