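import Vale.Agent.P208.SparseL2

namespace Vale.Agent.Results.P208.SparseVectors

open Vale.Agent.P208

/-- For all `d, lam` there are `k` and `D` such that every doubling subset (constant `lam`) of `l_2`
all of whose points have at most `d` nonzero coordinates admits a bi-Lipschitz embedding into `R^k`
with distortion at most `D`. -/
theorem result (d lam : ℕ) : ∃ (k : ℕ) (D : ℝ),
    ∀ X : Set (lp (fun _ : ℕ => ℝ) 2),
      (∀ x ∈ X, ∃ S : Finset ℕ, S.card ≤ d ∧ ∀ i, i ∉ S → x i = 0) →
      IsDoublingWith X lam → EmbedsWith X k D :=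
  ⟨kS 1 d 0 lam, DS 1 d 0 lam, fun X hsp hdoub => sparse_l2_embeds d lam X hsp hdoub⟩

end Vale.Agent.Results.P208.SparseVectors
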